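import Vale.Agent.P088.H442.Defs3
import Vale.Agent.P088.H884.Iso

/-!
# P088, row CF_ISO: the push-forward of the density is conformally flat, so the metric is a pull-back
-/

open MeasureTheory Set
open scoped ContDiff Matrix

namespace Vale.Agent.P088.H695

open Vale.Agent.P088.LR Vale.Agent.P088.LR.CF Vale.Agent.P088.H884

theorem iso_mat2 {m : ℕ} (J G : Matrix (Fin (m + 3)) (Fin (m + 3)) ℝ) {γ : ℝ} (hγ : 0 < γ)
    (hJ : 0 < J.det) (hG : 0 < G.det)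
    (h : J.det⁻¹ • (J * (√G.det • G⁻¹) * Jᵀ) = √(γ • (1 : Matrix (Fin (m + 3)) (Fin (m + 3)) ℝ)).det •
      (γ • (1 : Matrix (Fin (m + 3)) (Fin (m + 3)) ℝ))⁻¹) : G = γ • (Jᵀ * J) := by
  have hu : IsUnit G.det := isUnit_iff_ne_zero.mpr hG.ne'
  have i1 : (γ • (1 : Matrix (Fin (m + 3)) (Fin (m + 3)) ℝ))⁻¹ = γ⁻¹ • 1 := by
    refine Matrix.inv_eq_right_inv ?_
    rw [Matrix.smul_mul, Matrix.mul_smul, smul_smul, mul_inv_cancel₀ hγ.ne', one_smul,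
      Matrix.mul_one]
  have i2 : (γ⁻¹ • G)⁻¹ = γ • G⁻¹ := by
    refine Matrix.inv_eq_right_inv ?_
    rw [Matrix.smul_mul, Matrix.mul_smul, smul_smul, inv_mul_cancel₀ hγ.ne', one_smul,
      Matrix.mul_nonsing_inv G hu]
  have d1 : (γ • (1 : Matrix (Fin (m + 3)) (Fin (m + 3)) ℝ)).det = γ ^ (m + 3) := by
    rw [Matrix.det_smul, Matrix.det_one, Fintype.card_fin, mul_one]
  have d2 : (γ⁻¹ • G).det = (γ⁻¹) ^ (m + 3) * G.det := by
    rw [Matrix.det_smul, Fintype.card_fin]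
  have hp : (0 : ℝ) < γ ^ (m + 3) := by positivity
  have hG' : 0 < (γ⁻¹ • G).det := by rw [d2]; positivity
  have key := iso_mat J (γ⁻¹ • G) hJ hG' (by
    rw [d2, i2]
    rw [d1, i1] at h
    have s1 : √((γ⁻¹) ^ (m + 3) * G.det) = (√(γ ^ (m + 3)))⁻¹ * √G.det := by
      rw [inv_pow, Real.sqrt_mul (by positivity), Real.sqrt_inv]
    have hs : √(γ ^ (m + 3)) ≠ 0 := (Real.sqrt_pos.mpr hp).ne'
    have e1 : J.det⁻¹ • (J * (√((γ⁻¹) ^ (m + 3) * G.det) • (γ • G⁻¹)) * Jᵀ) =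
        ((√(γ ^ (m + 3)))⁻¹ * γ) • (J.det⁻¹ • (J * (√G.det • G⁻¹) * Jᵀ)) := by
      rw [s1]
      simp only [Matrix.mul_smul, Matrix.smul_mul, smul_smul]
      congr 1
      ring
    rw [e1, h, smul_smul, smul_smul]
    have e2 : (√(γ ^ (m + 3)))⁻¹ * γ * √(γ ^ (m + 3)) * γ⁻¹ = 1 := by
      field_simp
    rw [e2, one_smul])
  have := congrArg (fun M => γ • M) key
  simpa [smul_smul, mul_inv_cancel₀ hγ.ne'] using this

/-- (CF_ISO) -/
theorem is2 : RowIS2 := by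
  intro n hn Ω c g hc hpos w K hD hpsh x
  obtain ⟨m, rfl⟩ : ∃ m, n = m + 3 := ⟨n - 3, by omega⟩
  have h := hpsh (x + w x)
  unfold psh at h
  rw [hD.l x] at h
  exact iso_mat2 (jm w x) (g x) (hc _) (hD.dp x) (hpos x).det_pos h

end Vale.Agent.P088.H695
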