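import Vale.Agent.P088.H442.Defs3
import Vale.Agent.P088.H884.Star
import Vale.Agent.P088.H757.Weak

/-!
# P088, row CF_STAR: equal Dirichlet-to-Neumann forms of two tensors give the orthogonality identity
-/

open MeasureTheory Set
open scoped ContDiff Matrix

namespace Vale.Agent.P088.H695

open Vale.Agent.P088.LR Vale.Agent.P088.LR.CF Vale.Agent.P088.H884

variable {n : ℕ}

theorem st2_of (weak : RowWEAK) : RowST2 := by
  intro n Ω hO hb s₁ s₂ hs₁ hs₂ y₁ y₂ hSD U W hU hW hU0 hW0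
  have c₁ : ∀ i j, Continuous fun x => s₁ x i j := fun i j => (hs₁ i j).continuous
  have c₂ : ∀ i j, Continuous fun x => s₂ x i j := fun i j => (hs₂ i j).continuous
  obtain ⟨u, v, u', v', hu, hv, hu', hv', heq⟩ := hSD U W hU hW
  have e1 : bl Ω s₁ u v = bl Ω s₁ U W := by
    have a : bl Ω s₁ (fun y => u y - U y) v = 0 := by
      rw [bl_comm Ω y₁]
      exact hv.2.2 _ (hu.1.sub hU) fun x hx => by rw [hu.2.1 x hx, sub_self]
    have b : bl Ω s₁ U (fun y => v y - W y) = 0 :=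
      weak Ω hO hb _ hs₁ y₁ U _ hU (hv.1.sub hW) hU0 fun x hx => by
        rw [hv.2.1 x hx, sub_self]
    rw [bl_sub_left hb c₁ hu.1 hU hv.1] at a
    rw [bl_sub_right hb c₁ hU hv.1 hW] at b
    rw [sub_eq_zero.mp a, sub_eq_zero.mp b]
  have e2 : bl Ω s₂ u' v' = bl Ω s₂ U W := by
    have a : bl Ω s₂ u' (fun y => v' y - W y) = 0 :=
      hu'.2.2 _ (hv'.1.sub hW) fun x hx => by rw [hv'.2.1 x hx, sub_self]
    have b : bl Ω s₂ (fun y => u' y - U y) W = 0 := by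
      rw [bl_comm Ω y₂]
      exact weak Ω hO hb s₂ hs₂ y₂ W _ hW (hu'.1.sub hU) hW0 fun x hx => by
        rw [hu'.2.1 x hx, sub_self]
    rw [bl_sub_right hb c₂ hu'.1 hv'.1 hW] at a
    rw [bl_sub_left hb c₂ hu'.1 hU hW] at b
    rw [sub_eq_zero.mp a, sub_eq_zero.mp b]
  rw [bl_sub_mat hb c₂ c₁ hU hW, ← e1, ← e2, heq, sub_self]

/-- (CF_STAR) -/
theorem st2 : RowST2 := st2_of Vale.Agent.P088.LR.weak

end Vale.Agent.P088.H695
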